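import Vale.Agent.P207.H722.S0High

/-!
# P207 / S0, Cayley case (`n = 16`, `d = 7`): the real certificates (helper722)
-/

namespace Vale.Agent.P207.H722.S0

noncomputable section

/-- **S0, Cayley, low range**: only the part of type `β = 0` exists for `L < 96` -/
theorem low_C {L W : ℝ} (h1 : 56 ≤ L) (h2 : L ≤ 96) (hW : 0 < W) :
    0 < Low 16 7 L (1/16) 0 W 0 0 0 := by
  have hL : 0 < L := by linarith
  have e : Low 16 7 L (1/16) 0 W 0 0 0 =
      W * (-1*L^3 + 72*L^2 + 78144*L - 2764800) / (56320*L) := by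
    simp only [Low, M1, M2, kk, y2, pk, ss, aa, eta, b0]
    field_simp
    ring
  rw [e]
  refine div_pos (mul_pos hW ?_) (by positivity)
  obtain ⟨t, ht, hLt⟩ : ∃ t : ℝ, 0 ≤ t ∧ L = 56 + t := ⟨L - 56, by linarith, by ring⟩
  have ht2 : 0 ≤ 40 - t := by linarith
  have h3 : 0 ≤ t * (40 - t) := mul_nonneg ht ht2
  have h4 : 0 ≤ t * t * (40 - t) := mul_nonneg (mul_nonneg ht ht) ht2
  rw [hLt]
  nlinarith [h3, h4]

theorem ceq_P {L : ℝ} (hL : 0 < L) : High 16 7 L 1 0 0 0 0 =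
    (15) / (1*(1)) := by
  have h1 : (0:ℝ) < L + 64 := by linarith
  have h2 : (L + 4*16 : ℝ) ≠ 0 := by linarith
  simp only [High, High1, High2, xx2, q0, q1, q2, q3, dx, kk, y2, pk, ss, aa, eta]
  field_simp
  ring

theorem ceq_w {L : ℝ} (hL : 0 < L) : High 16 7 L 0 1 0 0 0 =
    (859*L - 68784) / (66*((L + 64))) := by
  have h1 : (0:ℝ) < L + 64 := by linarith
  have h2 : (L + 4*16 : ℝ) ≠ 0 := by linarith
  simp only [High, High1, High2, xx2, q0, q1, q2, q3, dx, kk, y2, pk, ss, aa, eta]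
  field_simp
  ring

theorem ceq_b {L : ℝ} (hL : 0 < L) : High 16 7 L 0 0 1 0 0 =
    (-6104*L - 42416) / (11*((L + 64)^2)) := by
  have h1 : (0:ℝ) < L + 64 := by linarith
  have h2 : (L + 4*16 : ℝ) ≠ 0 := by linarith
  simp only [High, High1, High2, xx2, q0, q1, q2, q3, dx, kk, y2, pk, ss, aa, eta]
  field_simp
  ring

theorem ceq_z {L : ℝ} (hL : 0 < L) : High 16 7 L 0 0 0 1 0 =
    (92320) / (11*((L + 64)^2)) := by
  have h1 : (0:ℝ) < L + 64 := by linarith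
  have h2 : (L + 4*16 : ℝ) ≠ 0 := by linarith
  simp only [High, High1, High2, xx2, q0, q1, q2, q3, dx, kk, y2, pk, ss, aa, eta]
  field_simp
  ring

theorem ceq_r {L : ℝ} (hL : 0 < L) : High 16 7 L 0 0 0 0 1 =
    (860) / (3*((L + 64))) := by
  have h1 : (0:ℝ) < L + 64 := by linarith
  have h2 : (L + 4*16 : ℝ) ≠ 0 := by linarith
  simp only [High, High1, High2, xx2, q0, q1, q2, q3, dx, kk, y2, pk, ss, aa, eta]
  field_simp
  ring

/-- **S0, Cayley, high range** -/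
theorem high_C {L Φ W0 W1 W2 γ : ℝ} (h1 : 96 ≤ L)
    (hΦ : 0 ≤ Φ) (hW0 : 0 ≤ W0) (hW1 : 0 ≤ W1) (hW2 : 0 ≤ W2)
    (hγ : γ^2 ≤ Φ*(L/16*b0 16 7 L*W1)) (hpos : 0 < Φ + W0 + W1 + W2) :
    0 < High 16 7 L Φ (W0 + W1 + W2) (b1 16 7 L*W0 + b0 16 7 L*W1)
      (L/16*b0 16 7 L*W1) γ := by
  have hL : 0 < L := by linarith
  obtain ⟨t, ht, hLt⟩ : ∃ t : ℝ, 0 ≤ t ∧ L = 96 + t := ⟨L - 96, by linarith, by ring⟩
  have hb0 : b0 16 7 L = t/144 := by rw [hLt]; simp only [b0]; ring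
  have hb1 : b1 16 7 L = t/144 := by rw [hLt]; simp only [b1]; ring
  have hP : 0 < High 16 7 L 1 0 0 0 0 := by
    rw [ceq_P hL]; norm_num
  have hw : 0 < High 16 7 L 0 1 0 0 0 := by
    rw [ceq_w hL]; exact div_pos (by linarith) (by positivity)
  have ha : 0 < High 16 7 L 0 1 0 0 0 + b1 16 7 L * High 16 7 L 0 0 1 0 0 := by
    rw [hb1, ceq_w hL, ceq_b hL, hLt]
    have key : (859*(96+t) - 68784) / (66*(((96+t) + 64))) + t/144*((-6104*(96+t) - 42416) / (11*(((96+t) + 64)^2))) = (907*t^2 + 187405*t + 3283200) / (99*(t + 160)^2) := by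
      have : (96 + t + 64 : ℝ) ≠ 0 := by linarith
      have : (t + 160 : ℝ) ≠ 0 := by linarith
      field_simp
      ring
    rw [key]
    positivity
  have hG : 0 < High 16 7 L 0 1 0 0 0
        + b0 16 7 L * High 16 7 L 0 0 1 0 0
        + L/16*b0 16 7 L * High 16 7 L 0 0 0 1 0 := by
    rw [hb0, ceq_w hL, ceq_b hL, ceq_z hL, hLt]
    have key : (859*(96+t) - 68784) / (66*(((96+t) + 64))) + t/144*((-6104*(96+t) - 42416) / (11*(((96+t) + 64)^2))) + (96+t)/16*(t/144)*((92320) / (11*(((96+t) + 64)^2))) = (10141*t^2 + 1776200*t + 26265600) / (792*(t + 160)^2) := by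
      have : (96 + t + 64 : ℝ) ≠ 0 := by linarith
      have : (t + 160 : ℝ) ≠ 0 := by linarith
      field_simp
      ring
    rw [key]
    positivity
  have hdet : (High 16 7 L 0 0 0 0 1)^2*(L/16*b0 16 7 L) <
      4*High 16 7 L 1 0 0 0 0*(High 16 7 L 0 1 0 0 0
        + b0 16 7 L * High 16 7 L 0 0 1 0 0
        + L/16*b0 16 7 L * High 16 7 L 0 0 0 1 0) := by
    rw [← sub_pos, hb0, ceq_w hL, ceq_b hL, ceq_z hL, ceq_P hL, ceq_r hL, hLt]
    have key : 4*((15) / (1*(1)))*((859*(96+t) - 68784) / (66*(((96+t) + 64))) + t/144*((-6104*(96+t) - 42416) / (11*(((96+t) + 64)^2))) + (96+t)/16*(t/144)*((92320) / (11*(((96+t) + 64)^2))))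
        - ((860) / (3*(((96+t) + 64))))^2*((96+t)/16*(t/144)) = (10443805*t^2 + 1869482400*t + 28366848000) / (14256*(t + 160)^2) := by
      have : (96 + t + 64 : ℝ) ≠ 0 := by linarith
      have : (t + 160 : ℝ) ≠ 0 := by linarith
      field_simp
      ring
    rw [key]
    positivity
  obtain ⟨t1, t2⟩ := two hP hG hdet hΦ hW1 hγ
  rw [High_lin]
  have e : Φ*High 16 7 L 1 0 0 0 0 + (W0+W1+W2)*High 16 7 L 0 1 0 0 0
      + (b1 16 7 L*W0 + b0 16 7 L*W1)*High 16 7 L 0 0 1 0 0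
      + L/16*b0 16 7 L*W1*High 16 7 L 0 0 0 1 0
      + γ*High 16 7 L 0 0 0 0 1
      = (High 16 7 L 1 0 0 0 0*Φ + High 16 7 L 0 0 0 0 1*γ
        + (High 16 7 L 0 1 0 0 0
        + b0 16 7 L * High 16 7 L 0 0 1 0 0
        + L/16*b0 16 7 L * High 16 7 L 0 0 0 1 0)*W1)
        + (High 16 7 L 0 1 0 0 0 + b1 16 7 L * High 16 7 L 0 0 1 0 0)*W0
        + High 16 7 L 0 1 0 0 0*W2 := by ring
  rw [e]
  have h3 : 0 ≤ High 16 7 L 0 1 0 0 0*W2 := mul_nonneg hw.le hW2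
  have h4 : 0 ≤ (High 16 7 L 0 1 0 0 0 + b1 16 7 L * High 16 7 L 0 0 1 0 0)*W0 :=
    mul_nonneg ha.le hW0
  rcases lt_or_ge 0 (Φ + W1) with h | h
  · have := t2 h
    linarith
  · rcases lt_or_ge 0 W0 with h' | h'
    · have := mul_pos ha h'
      linarith
    · have : 0 < High 16 7 L 0 1 0 0 0*W2 := mul_pos hw (by linarith)
      linarith

end

end Vale.Agent.P207.H722.S0
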