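import Mathlib

/-!
# P207 / S0, low range: the real certificate (helper722)

`n = dim`, `d + 1` = dimension of the leaves. A function `f = φ + w` of types `(0,0) + (2,0)` in the
Casimir eigenspace `L`; `u = B* w`, `c_u = A* u`, `v = A φ`:
`Φ = |φ|²`, `W = |w|²`, `β = |u|²`, `ζ = |c_u|²`, `γ = ⟨v, u⟩`.
`M1 = ⟨Λ_L f, f⟩ = (d+1) |X f|²`, `M2 = |Λ_L f|²` as linear forms in these numbers.
-/

namespace Vale.Agent.P207.H722.S0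

noncomputable section

/-- `|B u|²` -/
def eta (n d L β ζ : ℝ) : ℝ :=
  ((L - 2*(d-1)*(n-d-1))*β + (n-2*d-2)*ζ) / ((d+1)*(n+2))

/-- `|A u|²` -/
def aa (n d L β ζ : ℝ) : ℝ := ((n-2)*ζ + (L+2*n-2+6*d)*β)/(n+2) - eta n d L β ζ

/-- `|B v|² / |v|²`, `v = A φ` -/
def b0 (n d L : ℝ) : ℝ := 2*(n-d-1)*(L-n*(d-1)) / (n*(d+1)*(n+2))

/-- `|B u|² / |u|²` for coclosed `u` -/
def b1 (n d L : ℝ) : ℝ := (L - 2*(d-1)*(n-d-1)) / ((d+1)*(n+2))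

/-- `|A w|²` -/
def ss (n L W β : ℝ) : ℝ := (L+4*n)/(n+4)*W + n/(n+4)*β

/-- `|A A w|² + |B A w|²` -/
def pk (n d L W β ζ : ℝ) : ℝ :=
  ((n+2)*(((L+4*n)/(n+4))^2*W + 2*((L+4*n)/(n+4))*(n/(n+4))*β
      + (n/(n+4))^2*(eta n d L β ζ + aa n d L β ζ))
    + (L+6*(n+1)+6*d)*ss n L W β)/(n+6)

/-- the square of the `(2,0)` part of `X² w` -/
def y2 (n d L W β ζ : ℝ) : ℝ :=
  ((L+4*n)/(n+4))^2*W + 2*((L+4*n)/(n+4))*(1+n/(n+4))*β + (1+n/(n+4))^2*eta n d L β ζ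

/-- `|B A w|²` -/
def kk (n d L W β ζ : ℝ) : ℝ :=
  (d+3)/(3*(d+1))*(pk n d L W β ζ
    - (2*d*(y2 n d L W β ζ + ζ) + 8*d*(ss n L W β + β))/(d+3)
    + (1+n/(n+4))^2*aa n d L β ζ)

/-- `⟨Λ_L f, f⟩` -/
def M1 (n d L Φ W β γ : ℝ) : ℝ := (d+1)*(ss n L W β + β + L/n*Φ - 2*γ)

/-- `|Λ_L f|²` -/
def M2 (n d L Φ W β ζ γ : ℝ) : ℝ :=
  (d+1)^2*(kk n d L W β ζ + y2 n d L W β ζ + b0 n d L*(L/n)*Φ - 2*((L+4*n)/(n+4))*γ
    - 2*(1+n/(n+4))*b0 n d L*γ + (L/n)^2*Φ - 2*(L/n)*γ + ζ)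

/-- `1/d` times the lower bound given by PI0 with `s = 3/4` and the leaf field `- c0 H_2 f` -/
def Low (n d L c0 Φ W β ζ γ : ℝ) : ℝ :=
  2*(Φ + W + 2*c0*M1 n d L Φ W β γ/(d+1)
      - c0^2*(M2 n d L Φ W β ζ γ + 8*(d+2)*M1 n d L Φ W β γ)/((d+1)*(d+3)))
    - 9/(16*L)*(2*M1 n d L Φ W β γ + M2 n d L Φ W β ζ γ/(2*(d+1)))

theorem Low_lin (n d L c0 Φ W β ζ γ : ℝ) :
    Low n d L c0 Φ W β ζ γ = Φ*Low n d L c0 1 0 0 0 0 + W*Low n d L c0 0 1 0 0 0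
      + β*Low n d L c0 0 0 1 0 0 + ζ*Low n d L c0 0 0 0 1 0 + γ*Low n d L c0 0 0 0 0 1 := by
  simp only [Low, M1, M2, kk, y2, pk, ss, aa, eta]
  ring


theorem num_w {m L : ℝ} (hm : 2 ≤ m) (h1 : 8*m ≤ L) (h2 : L ≤ 24*m) :
    0 < 6400*m^2*L - 93312*m^2 + 80*m*L^2 + 5128*m*L - 62208*m - 2*L^3 - 35*L^2 + 3024*L := by
  obtain ⟨θ, hθ0, hθ1, hL⟩ : ∃ θ : ℝ, 0 ≤ θ ∧ θ ≤ 1 ∧ L = 8*m + 16*m*θ := by
    refine ⟨(L - (8*m)) / (16*m), div_nonneg (by linarith) (by linarith), ?_, ?_⟩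
    · rw [div_le_one (by linarith)]; linarith
    · have h : (16*m : ℝ) ≠ 0 := by
        have : (0:ℝ) < 16*m := by linarith
        exact this.ne'
      field_simp
      ring
  obtain ⟨μ, hμ, hm'⟩ : ∃ μ : ℝ, 0 ≤ μ ∧ m = 2 + μ := ⟨m - 2, by linarith, by ring⟩
  obtain ⟨t, ht, hθ⟩ : ∃ t : ℝ, 0 ≤ t ∧ θ = 1 - t := ⟨1 - θ, by linarith, by ring⟩
  have key : 6400*m^2*L - 93312*m^2 + 80*m*L^2 + 5128*m*L - 62208*m - 2*L^3 - 35*L^2 + 3024*L =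
      (55296*μ^3 + 277248*μ^2 + 407424*μ + 74112)*(t^3) + (282624*μ^3 + 1605248*μ^2 + 2963840*μ
      + 1545344)*(θ*t^2) + (407552*μ^3 + 2418944*μ^2 + 4767872*μ + 2898048)*(θ^2*t) + (172032*μ^3
      + 1041792*μ^2 + 2113152*μ + 1361280)*(θ^3) + 74112 := by
    rw [hL, hm', hθ]; ring
  rw [key]
  positivity

theorem num_a {m L : ℝ} (hm : 2 ≤ m) (h1 : 16*m - 16 ≤ L) (h2 : L ≤ 24*m) :
    0 < 2816*m^2*L - 15552*m^2 + 80*m*L^2 + 2180*m*L - 38880*m - 2*L^3 - 107*L^2 - 1122*L - 23328 := by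
  obtain ⟨θ, hθ0, hθ1, hL⟩ : ∃ θ : ℝ, 0 ≤ θ ∧ θ ≤ 1 ∧ L = 16*m - 16 + (8*m + 16)*θ := by
    refine ⟨(L - (16*m - 16)) / (8*m + 16), div_nonneg (by linarith) (by linarith), ?_, ?_⟩
    · rw [div_le_one (by linarith)]; linarith
    · have h : (8*m + 16 : ℝ) ≠ 0 := by
        have : (0:ℝ) < 8*m + 16 := by linarith
        exact this.ne'
      field_simp
      ring
  obtain ⟨μ, hμ, hm'⟩ : ∃ μ : ℝ, 0 ≤ μ ∧ m = 2 + μ := ⟨m - 2, by linarith, by ring⟩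
  obtain ⟨t, ht, hθ⟩ : ∃ t : ℝ, 0 ≤ t ∧ θ = 1 - t := ⟨1 - θ, by linarith, by ring⟩
  have key : 2816*m^2*L - 15552*m^2 + 80*m*L^2 + 2180*m*L - 38880*m - 2*L^3 - 107*L^2 - 1122*L - 23328 =
      (57344*μ^3 + 274560*μ^2 + 369088*μ + 37056)*(t^3) + (202752*μ^3 + 1063584*μ^2 + 1692656*μ
      + 580352)*(θ*t^2) + (232448*μ^3 + 1292544*μ^2 + 2239648*μ + 1005504)*(θ^2*t) + (86016*μ^3
      + 491232*μ^2 + 866928*μ + 396672)*(θ^3) + 37056 := by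
    rw [hL, hm', hθ]; ring
  rw [key]
  positivity

theorem num_P {m L : ℝ} (hm : 2 ≤ m) (h1 : 8*m ≤ L) (h2 : L ≤ 24*m) :
    0 < 4608*m^2 + 144*m*L + 360*m - 2*L^2 - 179*L - 1944 := by
  obtain ⟨θ, hθ0, hθ1, hL⟩ : ∃ θ : ℝ, 0 ≤ θ ∧ θ ≤ 1 ∧ L = 8*m + 16*m*θ := by
    refine ⟨(L - (8*m)) / (16*m), div_nonneg (by linarith) (by linarith), ?_, ?_⟩
    · rw [div_le_one (by linarith)]; linarith
    · have h : (16*m : ℝ) ≠ 0 := by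
        have : (0:ℝ) < 16*m := by linarith
        exact this.ne'
      field_simp
      ring
  obtain ⟨μ, hμ, hm'⟩ : ∃ μ : ℝ, 0 ≤ μ ∧ m = 2 + μ := ⟨m - 2, by linarith, by ring⟩
  obtain ⟨t, ht, hθ⟩ : ∃ t : ℝ, 0 ≤ t ∧ θ = 1 - t := ⟨1 - θ, by linarith, by ring⟩
  have key : 4608*m^2 + 144*m*L + 360*m - 2*L^2 - 179*L - 1944 =
      (5632*μ^2 + 21456*μ + 9524)*(t^2) + (13056*μ^2 + 47216*μ + 20488)*(θ*t) + (6912*μ^2 + 23712*μ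
      + 8916)*(θ^2) + 8916 := by
    rw [hL, hm', hθ]; ring
  rw [key]
  positivity

theorem num_g {m L : ℝ} (hm : 2 ≤ m) (h1 : 8*m ≤ L) (h2 : L ≤ 24*m) :
    0 < 5632*m^3*L - 31104*m^3 + 224*m^2*L^2 + 2416*m^2*L - 77760*m^2 - 8*m*L^3 - 716*m*L^2 + 672*m*L
      - 46656*m + 6*L^3 + 537*L^2 + 5832*L := by
  obtain ⟨θ, hθ0, hθ1, hL⟩ : ∃ θ : ℝ, 0 ≤ θ ∧ θ ≤ 1 ∧ L = 8*m + 16*m*θ := by
    refine ⟨(L - (8*m)) / (16*m), div_nonneg (by linarith) (by linarith), ?_, ?_⟩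
    · rw [div_le_one (by linarith)]; linarith
    · have h : (16*m : ℝ) ≠ 0 := by
        have : (0:ℝ) < 16*m := by linarith
        exact this.ne'
      field_simp
      ring
  obtain ⟨μ, hμ, hm'⟩ : ∃ μ : ℝ, 0 ≤ μ ∧ m = 2 + μ := ⟨m - 2, by linarith, by ring⟩
  obtain ⟨t, ht, hθ⟩ : ∃ t : ℝ, 0 ≤ t ∧ θ = 1 - t := ⟨1 - θ, by linarith, by ring⟩
  have key : 5632*m^3*L - 31104*m^3 + 224*m^2*L^2 + 2416*m^2*L - 77760*m^2 - 8*m*L^3 - 716*m*L^2 + 672*m*L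
      - 46656*m + 6*L^3 + 537*L^2 + 5832*L =
      (55296*μ^4 + 387840*μ^3 + 961920*μ^2 + 963072*μ + 148224)*(t^3) + (288768*μ^4 + 2020352*μ^3
      + 5225856*μ^2 + 5993088*μ + 2180608)*(θ*t^2) + (419840*μ^4 + 2796288*μ^3 + 7021440*μ^2
      + 8151808*μ + 3426048)*(θ^2*t) + (153600*μ^4 + 926208*μ^3 + 2118528*μ^2 + 2368128*μ
      + 1065984)*(θ^3) + 148224 := by
    rw [hL, hm', hθ]; ring
  rw [key]
  positivity

theorem num_det {m L : ℝ} (hm : 2 ≤ m) (h1 : 8*m ≤ L) (h2 : L ≤ 24*m) :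
    0 < 12976128*m^6*L - 71663616*m^6 + 954368*m^5*L^2 + 15326208*m^5*L - 226188288*m^5 - 14080*m^4*L^3
      - 842624*m^4*L^2 - 3162816*m^4*L - 200434176*m^4 - 512*m^3*L^4 - 51776*m^3*L^3
      - 1221664*m^3*L^2 + 9398016*m^3*L - 8957952*m^3 + 4*m^2*L^5 + 492*m^2*L^4 + 29129*m^2*L^3
      + 1047720*m^2*L^2 + 14910912*m^2*L + 36951552*m^2 := by
  obtain ⟨θ, hθ0, hθ1, hL⟩ : ∃ θ : ℝ, 0 ≤ θ ∧ θ ≤ 1 ∧ L = 8*m + 16*m*θ := by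
    refine ⟨(L - (8*m)) / (16*m), div_nonneg (by linarith) (by linarith), ?_, ?_⟩
    · rw [div_le_one (by linarith)]; linarith
    · have h : (16*m : ℝ) ≠ 0 := by
        have : (0:ℝ) < 16*m := by linarith
        exact this.ne'
      field_simp
      ring
  obtain ⟨μ, hμ, hm'⟩ : ∃ μ : ℝ, 0 ≤ μ ∧ m = 2 + μ := ⟨m - 2, by linarith, by ring⟩
  obtain ⟨t, ht, hθ⟩ : ∃ t : ℝ, 0 ≤ t ∧ θ = 1 - t := ⟨1 - θ, by linarith, by ring⟩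
  have key : 12976128*m^6*L - 71663616*m^6 + 954368*m^5*L^2 + 15326208*m^5*L - 226188288*m^5 - 14080*m^4*L^3
      - 842624*m^4*L^2 - 3162816*m^4*L - 200434176*m^4 - 512*m^3*L^4 - 51776*m^3*L^3
      - 1221664*m^3*L^2 + 9398016*m^3*L - 8957952*m^3 + 4*m^2*L^5 + 492*m^2*L^4 + 29129*m^2*L^3
      + 1047720*m^2*L^2 + 14910912*m^2*L + 36951552*m^2 =
      (155713536*μ^7 + 2152513536*μ^6 + 12435462144*μ^5 + 38745403392*μ^4 + 69857656320*μ^3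
      + 72166427136*μ^2 + 38912704512*μ + 4099875840)*(t^5) + (1171783680*μ^7 + 16154165248*μ^6
      + 93572470784*μ^5 + 294701828096*μ^4 + 543973593600*μ^3 + 587419081216*μ^2 + 343294676992*μ
      + 63413949440)*(θ*t^4) + (3242721280*μ^7 + 44184174592*μ^6 + 253444630528*μ^5
      + 792718383104*μ^4 + 1459563453440*μ^3 + 1582986281984*μ^2 + 939223891968*μ
      + 196026722304)*(θ^2*t^3) + (4140302336*μ^7 + 55404953600*μ^6 + 312001193984*μ^5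
      + 957733574656*μ^4 + 1730578846720*μ^3 + 1843426628608*μ^2 + 1077034868736*μ
      + 228337920000)*(θ^3*t^2) + (2437939200*μ^7 + 31820759040*μ^6 + 174230224896*μ^5
      + 517867689984*μ^4 + 901313963520*μ^3 + 918974943744*μ^2 + 510869274624*μ
      + 100862899200)*(θ^4*t) + (528482304*μ^7 + 6657048576*μ^6 + 34888974336*μ^5 + 98070478848*μ^4
      + 158531443200*μ^3 + 146100515328*μ^2 + 70555373568*μ + 9774498816)*(θ^5) + 4099875840 := by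
    rw [hL, hm', hθ]; ring
  rw [key]
  positivity

theorem eq_w {m L : ℝ} (hm : 2 ≤ m) (hL : 0 < L) :
    Low (4*m) 3 L (1/12) 0 1 0 0 0 =
      (6400*m^2*L - 93312*m^2 + 80*m*L^2 + 5128*m*L - 62208*m - 2*L^3 - 35*L^2
      + 3024*L) / (1152*((m + 1)*(2*m + 3)*L)) := by
  have hm0 : (0:ℝ) < m := by linarith
  simp only [Low, M1, M2, kk, y2, pk, ss, aa, eta, b0]
  field_simp
  ring


theorem eq_P {m L : ℝ} (hm : 2 ≤ m) (hL : 0 < L) :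
    Low (4*m) 3 L (1/12) 1 0 0 0 0 =
      (4608*m^2 + 144*m*L + 360*m - 2*L^2 - 179*L - 1944) / (1152*((2*m + 1)*m)) := by
  have hm0 : (0:ℝ) < m := by linarith
  simp only [Low, M1, M2, kk, y2, pk, ss, aa, eta, b0]
  field_simp
  ring


theorem eq_a {m L : ℝ} (hm : 2 ≤ m) (hL : 0 < L) :
    Low (4*m) 3 L (1/12) 0 1 0 0 0 + b1 (4*m) 3 L * Low (4*m) 3 L (1/12) 0 0 1 0 0 =
      (2816*m^2*L - 15552*m^2 + 80*m*L^2 + 2180*m*L - 38880*m - 2*L^3 - 107*L^2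
      - 1122*L - 23328) / (576*((m + 1)*(2*m + 3)*L)) := by
  have hm0 : (0:ℝ) < m := by linarith
  simp only [Low, M1, M2, kk, y2, pk, ss, aa, eta, b0, b1]
  field_simp
  ring


theorem eq_g {m L : ℝ} (hm : 2 ≤ m) (hL : 0 < L) :
    Low (4*m) 3 L (1/12) 0 1 0 0 0 + b0 (4*m) 3 L * Low (4*m) 3 L (1/12) 0 0 1 0 0
      + L/(4*m)*b0 (4*m) 3 L * Low (4*m) 3 L (1/12) 0 0 0 1 0 =
      (5632*m^3*L - 31104*m^3 + 224*m^2*L^2 + 2416*m^2*L - 77760*m^2 - 8*m*L^3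
      - 716*m*L^2 + 672*m*L - 46656*m + 6*L^3 + 537*L^2 + 5832*L) / (1152*((m + 1)*(2*m + 3)*L*m)) := by
  have hm0 : (0:ℝ) < m := by linarith
  simp only [Low, M1, M2, kk, y2, pk, ss, aa, eta, b0]
  field_simp
  ring


theorem eq_r {m L : ℝ} (hm : 2 ≤ m) (hL : 0 < L) :
    Low (4*m) 3 L (1/12) 0 0 0 0 1 =
      (2*L^2 + 179*L - 64*m*L + 1944*(m + 1)) / (144*((m + 1)*L)) := by
  have hm0 : (0:ℝ) < m := by linarith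
  simp only [Low, M1, M2, kk, y2, pk, ss, aa, eta, b0]
  field_simp
  ring

theorem two {P G r k Φ W γ : ℝ} (hP : 0 < P) (hG : 0 < G) (hd : r^2*k < 4*P*G)
    (hΦ : 0 ≤ Φ) (hW : 0 ≤ W) (hγ : γ^2 ≤ Φ*(k*W)) :
    0 ≤ P*Φ + r*γ + G*W ∧ (0 < Φ + W → 0 < P*Φ + r*γ + G*W) := by
  have hPW : 0 ≤ P*Φ := mul_nonneg hP.le hΦ
  have hGW : 0 ≤ G*W := mul_nonneg hG.le hW
  have h1 : (r*γ)^2 ≤ r^2*k*(Φ*W) := by
    calc (r*γ)^2 = r^2*γ^2 := by ring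
      _ ≤ r^2*(Φ*(k*W)) := mul_le_mul_of_nonneg_left hγ (sq_nonneg r)
      _ = r^2*k*(Φ*W) := by ring
  have h2 : 4*P*G*(Φ*W) ≤ (P*Φ + G*W)^2 := by nlinarith [sq_nonneg (P*Φ - G*W)]
  have h3 : r^2*k*(Φ*W) ≤ 4*P*G*(Φ*W) :=
    mul_le_mul_of_nonneg_right hd.le (mul_nonneg hΦ hW)
  refine ⟨?_, fun hpos => ?_⟩
  · by_contra h
    push Not at h
    have h4 : P*Φ + G*W < -(r*γ) := by linarith
    nlinarith [h4, add_nonneg hPW hGW]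
  · rcases eq_or_lt_of_le hΦ with h | h
    · rw [← h] at hγ
      have hγ0 : γ = 0 := by nlinarith [sq_nonneg γ]
      have hW' : 0 < W := by linarith
      rw [← h, hγ0]
      simpa using mul_pos hG hW'
    · rcases eq_or_lt_of_le hW with h' | h'
      · rw [← h'] at hγ
        have hγ0 : γ = 0 := by nlinarith [sq_nonneg γ]
        rw [← h', hγ0]
        simpa using mul_pos hP h
      · have h5 : r^2*k*(Φ*W) < 4*P*G*(Φ*W) := mul_lt_mul_of_pos_right hd (mul_pos h h')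
        by_contra hc
        push Not at hc
        have h4 : P*Φ + G*W ≤ -(r*γ) := by linarith
        nlinarith [h4, add_nonneg hPW hGW]

theorem det_pos {m L : ℝ} (hm : 2 ≤ m) (h1 : 8*m ≤ L) (h2 : L ≤ 24*m) :
    (Low (4*m) 3 L (1/12) 0 0 0 0 1)^2*(L/(4*m)*b0 (4*m) 3 L) <
      4*Low (4*m) 3 L (1/12) 1 0 0 0 0*(Low (4*m) 3 L (1/12) 0 1 0 0 0
        + b0 (4*m) 3 L * Low (4*m) 3 L (1/12) 0 0 1 0 0
        + L/(4*m)*b0 (4*m) 3 L * Low (4*m) 3 L (1/12) 0 0 0 1 0) := by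
  have hL : 0 < L := by linarith
  have hm0 : (0:ℝ) < m := by linarith
  have hn := num_det hm h1 h2
  rw [eq_r hm hL, eq_P hm hL, eq_g hm hL, ← sub_pos]
  have hb : b0 (4*m) 3 L = (m-1)*(L-8*m)/(4*m*(2*m+1)) := by
    simp only [b0]; field_simp; ring
  rw [hb]
  have key : 4*((4608*m^2 + 144*m*L + 360*m - 2*L^2 - 179*L - 1944) / (1152*((2*m + 1)*m)))
        *((5632*m^3*L - 31104*m^3 + 224*m^2*L^2 + 2416*m^2*L - 77760*m^2 - 8*m*L^3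
      - 716*m*L^2 + 672*m*L - 46656*m + 6*L^3 + 537*L^2 + 5832*L) / (1152*((m + 1)*(2*m + 3)*L*m)))
      - ((2*L^2 + 179*L - 64*m*L + 1944*(m + 1)) / (144*((m + 1)*L)))^2
          *(L/(4*m)*((m-1)*(L-8*m)/(4*m*(2*m+1))))
      = (12976128*m^6*L - 71663616*m^6 + 954368*m^5*L^2 + 15326208*m^5*L - 226188288*m^5
      - 14080*m^4*L^3 - 842624*m^4*L^2 - 3162816*m^4*L - 200434176*m^4 - 512*m^3*L^4
      - 51776*m^3*L^3 - 1221664*m^3*L^2 + 9398016*m^3*L - 8957952*m^3 + 4*m^2*L^5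
      + 492*m^2*L^4 + 29129*m^2*L^3 + 1047720*m^2*L^2 + 14910912*m^2*L + 36951552*m^2) / (165888*((m + 1)^2*(2*m + 3)*(2*m + 1)*L*m^2)) := by
    field_simp
    ring
  rw [key]
  positivity

/-- **S0, quaternionic, low range** -/
theorem low_H {m L Φ W0 W1 W2 γ : ℝ} (hm : 2 ≤ m) (h1 : 8*m ≤ L) (h2 : L ≤ 24*m)
    (hΦ : 0 ≤ Φ) (hW0 : 0 ≤ W0) (hW1 : 0 ≤ W1) (hW2 : 0 ≤ W2)
    (h0 : W0 = 0 ∨ 16*m - 16 ≤ L) (hγ : γ^2 ≤ Φ*(L/(4*m)*b0 (4*m) 3 L*W1))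
    (hpos : 0 < Φ + W0 + W1 + W2) :
    0 < Low (4*m) 3 L (1/12) Φ (W0 + W1 + W2) (b1 (4*m) 3 L*W0 + b0 (4*m) 3 L*W1)
      (L/(4*m)*b0 (4*m) 3 L*W1) γ := by
  have hL : 0 < L := by linarith
  have hm0 : (0:ℝ) < m := by linarith
  have hP : 0 < Low (4*m) 3 L (1/12) 1 0 0 0 0 := by
    rw [eq_P hm hL]; exact div_pos (num_P hm h1 h2) (by positivity)
  have hG : 0 < Low (4*m) 3 L (1/12) 0 1 0 0 0
        + b0 (4*m) 3 L * Low (4*m) 3 L (1/12) 0 0 1 0 0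
        + L/(4*m)*b0 (4*m) 3 L * Low (4*m) 3 L (1/12) 0 0 0 1 0 := by
    rw [eq_g hm hL]; exact div_pos (num_g hm h1 h2) (by positivity)
  have hw : 0 < Low (4*m) 3 L (1/12) 0 1 0 0 0 := by
    rw [eq_w hm hL]; exact div_pos (num_w hm h1 h2) (by positivity)
  have ha : 0 ≤ (Low (4*m) 3 L (1/12) 0 1 0 0 0
      + b1 (4*m) 3 L * Low (4*m) 3 L (1/12) 0 0 1 0 0)*W0 ∧
      (0 < W0 → 0 < (Low (4*m) 3 L (1/12) 0 1 0 0 0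
      + b1 (4*m) 3 L * Low (4*m) 3 L (1/12) 0 0 1 0 0)*W0) := by
    rcases h0 with h | h
    · rw [h]; simp
    · have : 0 < Low (4*m) 3 L (1/12) 0 1 0 0 0
          + b1 (4*m) 3 L * Low (4*m) 3 L (1/12) 0 0 1 0 0 := by
        rw [eq_a hm hL]; exact div_pos (num_a hm h h2) (by positivity)
      exact ⟨mul_nonneg this.le hW0, fun h' => mul_pos this h'⟩
  obtain ⟨t1, t2⟩ := two hP hG (det_pos hm h1 h2) hΦ hW1 hγ
  rw [Low_lin]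
  have e : Φ*Low (4*m) 3 L (1/12) 1 0 0 0 0 + (W0+W1+W2)*Low (4*m) 3 L (1/12) 0 1 0 0 0
      + (b1 (4*m) 3 L*W0 + b0 (4*m) 3 L*W1)*Low (4*m) 3 L (1/12) 0 0 1 0 0
      + L/(4*m)*b0 (4*m) 3 L*W1*Low (4*m) 3 L (1/12) 0 0 0 1 0
      + γ*Low (4*m) 3 L (1/12) 0 0 0 0 1
      = (Low (4*m) 3 L (1/12) 1 0 0 0 0*Φ + Low (4*m) 3 L (1/12) 0 0 0 0 1*γ
        + (Low (4*m) 3 L (1/12) 0 1 0 0 0
        + b0 (4*m) 3 L * Low (4*m) 3 L (1/12) 0 0 1 0 0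
        + L/(4*m)*b0 (4*m) 3 L * Low (4*m) 3 L (1/12) 0 0 0 1 0)*W1)
        + (Low (4*m) 3 L (1/12) 0 1 0 0 0
          + b1 (4*m) 3 L * Low (4*m) 3 L (1/12) 0 0 1 0 0)*W0
        + Low (4*m) 3 L (1/12) 0 1 0 0 0*W2 := by ring
  rw [e]
  have h3 : 0 ≤ Low (4*m) 3 L (1/12) 0 1 0 0 0*W2 := mul_nonneg hw.le hW2
  rcases lt_or_ge 0 (Φ + W1) with h | h
  · have := t2 h
    have := ha.1
    linarith
  · rcases lt_or_ge 0 W0 with h' | h'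
    · have := ha.2 h'
      linarith
    · have : 0 < Low (4*m) 3 L (1/12) 0 1 0 0 0*W2 := mul_pos hw (by linarith)
      have := ha.1
      linarith



end

end Vale.Agent.P207.H722.S0
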