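import Vale.Agent.P207.H722.S0Low

/-!
# P207 / S0, high range: the real certificate (helper722)

Same letters as in `S0Low`.  `f = φ + w`, test fields built from `w` only:
`F₁ = x X w`, `G₁ = y w`, `F₂ = z X w`, `G₂ = 0`.  `High` is the value `PP L f F₁ G₁ F₂ G₂`.
-/

namespace Vale.Agent.P207.H722.S0

noncomputable section

/-- `|X² w|²` -/
def xx2 (n d L W β ζ : ℝ) : ℝ :=
  pk n d L W β ζ + y2 n d L W β ζ + (1+n/(n+4))^2*aa n d L β ζ + ζ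

/-- leafwise degree `0` part of `|X² w|²` -/
def q0 (n d L W β ζ : ℝ) : ℝ := kk n d L W β ζ + y2 n d L W β ζ + ζ

/-- `⟨X² w, X A w⟩` -/
def q1 (n d L W β ζ : ℝ) : ℝ :=
  pk n d L W β ζ + ((L+4*n)/(n+4))^2*W + (L+4*n)/(n+4)*(1+2*(n/(n+4)))*β
    + n/(n+4)*(1+n/(n+4))*(eta n d L β ζ + aa n d L β ζ)

/-- `- ⟨X² w, X u⟩` -/
def q2 (n d L β ζ : ℝ) : ℝ :=
  (1+n/(n+4))*aa n d L β ζ + (L+4*n)/(n+4)*β + (1+n/(n+4))*eta n d L β ζ + ζ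

/-- `⟨Δ₁ X² w, X² w⟩` -/
def q3 (n d L W β ζ : ℝ) : ℝ :=
  2*n*y2 n d L W β ζ + (4*(n+2)-2*(d+1))*(pk n d L W β ζ - kk n d L W β ζ)
    + 4*(n+2)*kk n d L W β ζ + (2*n-2*(d+1))*(1+n/(n+4))^2*aa n d L β ζ

/-- `⟨Δ₁ X w, X w⟩` -/
def dx (n d L W β : ℝ) : ℝ := (3*(n+1)-d)*ss n L W β + (n-1-d)*β

/-- the eigenvalue `1` part of the quadratic form -/
def High1 (n d L x y Φ W β ζ γ : ℝ) : ℝ :=
  (n-1-d)*(Φ + W - 2*x*(ss n L W β + β) + x^2*xx2 n d L W β ζ + 2*x*γ)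
    - (n-1-d)*y^2*(ss n L W β + β)
    - (2*n*(W - 2*x*(ss n L W β + β)) + x^2*q3 n d L W β ζ)
    + y*((n-1-d)*γ - dx n d L W β
        + x*((3*(n+1)-d)*q1 n d L W β ζ + (n-1-d)*q2 n d L β ζ)
        + 2*n*(ss n L W β + β) - x*q3 n d L W β ζ
        - (n-1-d)*(x*xx2 n d L W β ζ - (ss n L W β + β) + γ))
    - y^2*(L*(ss n L W β + β) - (d+1)*q0 n d L W β ζ + dx n d L W β)
    - 2*y*(L*(W - x*(ss n L W β + β)) + (d+1)*(x*q0 n d L W β ζ - (ss n L W β + β) + γ))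

/-- the eigenvalue `4` part of the quadratic form -/
def High2 (n d L z Φ W β ζ γ : ℝ) : ℝ :=
  d*(Φ + W - 2*z*(ss n L W β + β) + z^2*xx2 n d L W β ζ + 2*z*γ)
    - 2*(d+1)*z^2*(pk n d L W β ζ - kk n d L W β ζ + (1+n/(n+4))^2*aa n d L β ζ)

/-- the quadratic form with the fields `x = 1/(3c)`, `y = -1/c`, `z = -1/(2c)`,
`c = (L+4n)/(n+4)` -/
def High (n d L Φ W β ζ γ : ℝ) : ℝ :=
  High1 n d L ((n+4)/(3*(L+4*n))) (-((n+4)/(L+4*n))) Φ W β ζ γ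
    + High2 n d L (-((n+4)/(2*(L+4*n)))) Φ W β ζ γ

theorem eta_lin (n d L β ζ : ℝ) : eta n d L β ζ = β*eta n d L 1 0 + ζ*eta n d L 0 1 := by
  simp only [eta]; ring

theorem aa_lin (n d L β ζ : ℝ) : aa n d L β ζ = β*aa n d L 1 0 + ζ*aa n d L 0 1 := by
  simp only [aa, eta]; ring

theorem ss_lin (n L W β : ℝ) : ss n L W β = W*ss n L 1 0 + β*ss n L 0 1 := by
  simp only [ss]; ring

theorem pk_lin (n d L W β ζ : ℝ) :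
    pk n d L W β ζ = W*pk n d L 1 0 0 + β*pk n d L 0 1 0 + ζ*pk n d L 0 0 1 := by
  simp only [pk]
  rw [eta_lin n d L β ζ, aa_lin n d L β ζ, ss_lin n L W β, eta_lin n d L 0 0, aa_lin n d L 0 0,
    ss_lin n L 0 0]
  ring

theorem y2_lin (n d L W β ζ : ℝ) :
    y2 n d L W β ζ = W*y2 n d L 1 0 0 + β*y2 n d L 0 1 0 + ζ*y2 n d L 0 0 1 := by
  simp only [y2]
  rw [eta_lin n d L β ζ, eta_lin n d L 0 0]
  ring

theorem kk_lin (n d L W β ζ : ℝ) :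
    kk n d L W β ζ = W*kk n d L 1 0 0 + β*kk n d L 0 1 0 + ζ*kk n d L 0 0 1 := by
  simp only [kk]
  rw [aa_lin n d L β ζ, ss_lin n L W β, pk_lin n d L W β ζ, y2_lin n d L W β ζ,
    aa_lin n d L 0 0, ss_lin n L 0 0]
  ring

theorem xx2_lin (n d L W β ζ : ℝ) :
    xx2 n d L W β ζ = W*xx2 n d L 1 0 0 + β*xx2 n d L 0 1 0 + ζ*xx2 n d L 0 0 1 := by
  simp only [xx2]
  rw [aa_lin n d L β ζ, pk_lin n d L W β ζ, y2_lin n d L W β ζ, aa_lin n d L 0 0]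
  ring

theorem q0_lin (n d L W β ζ : ℝ) :
    q0 n d L W β ζ = W*q0 n d L 1 0 0 + β*q0 n d L 0 1 0 + ζ*q0 n d L 0 0 1 := by
  simp only [q0]
  rw [kk_lin n d L W β ζ, y2_lin n d L W β ζ]
  ring

theorem q1_lin (n d L W β ζ : ℝ) :
    q1 n d L W β ζ = W*q1 n d L 1 0 0 + β*q1 n d L 0 1 0 + ζ*q1 n d L 0 0 1 := by
  simp only [q1]
  rw [pk_lin n d L W β ζ, eta_lin n d L β ζ, aa_lin n d L β ζ, eta_lin n d L 0 0,
    aa_lin n d L 0 0]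
  ring

theorem q2_lin (n d L β ζ : ℝ) : q2 n d L β ζ = β*q2 n d L 1 0 + ζ*q2 n d L 0 1 := by
  simp only [q2]
  rw [eta_lin n d L β ζ, aa_lin n d L β ζ]
  ring

theorem q3_lin (n d L W β ζ : ℝ) :
    q3 n d L W β ζ = W*q3 n d L 1 0 0 + β*q3 n d L 0 1 0 + ζ*q3 n d L 0 0 1 := by
  simp only [q3]
  rw [kk_lin n d L W β ζ, y2_lin n d L W β ζ, pk_lin n d L W β ζ, aa_lin n d L β ζ,
    aa_lin n d L 0 0]
  ring

theorem dx_lin (n d L W β : ℝ) : dx n d L W β = W*dx n d L 1 0 + β*dx n d L 0 1 := by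
  simp only [dx]
  rw [ss_lin n L W β]
  ring

theorem High_lin (n d L Φ W β ζ γ : ℝ) :
    High n d L Φ W β ζ γ = Φ*High n d L 1 0 0 0 0 + W*High n d L 0 1 0 0 0
      + β*High n d L 0 0 1 0 0 + ζ*High n d L 0 0 0 1 0 + γ*High n d L 0 0 0 0 1 := by
  simp only [High, High1, High2]
  rw [ss_lin n L W β, aa_lin n d L β ζ, pk_lin n d L W β ζ, kk_lin n d L W β ζ,
    xx2_lin n d L W β ζ, q0_lin n d L W β ζ, q1_lin n d L W β ζ, q2_lin n d L β ζ,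
    q3_lin n d L W β ζ, dx_lin n d L W β, ss_lin n L 0 0, aa_lin n d L 0 0, pk_lin n d L 0 0 0,
    kk_lin n d L 0 0 0, xx2_lin n d L 0 0 0, q0_lin n d L 0 0 0, q1_lin n d L 0 0 0,
    q2_lin n d L 0 0, q3_lin n d L 0 0 0, dx_lin n d L 0 0]
  ring


theorem hnum_w {m L : ℝ} (hm : 2 ≤ m) (h1 : 24*m ≤ L) :
    0 < -1408*m^3 + 80*m^2*L - 3256*m^2 + 293*m*L - 3024*m + 249*L - 1752 := by
  obtain ⟨μ, hμ, hm'⟩ : ∃ μ : ℝ, 0 ≤ μ ∧ m = 2 + μ := ⟨m - 2, by linarith, by ring⟩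
  obtain ⟨t, ht, hL⟩ : ∃ t : ℝ, 0 ≤ t ∧ L = 24*(2 + μ) + t :=
    ⟨L - 24*(2 + μ), by rw [← hm']; linarith, by ring⟩
  have key : -1408*m^3 + 80*m^2*L - 3256*m^2 + 293*m*L - 3024*m + 249*L - 1752 =
      512*μ^3 + 80*μ^2*t + 6848*μ^2 + 613*μ*t + 24200*μ + 1155*t + 23352 := by
    rw [hL, hm']; ring
  rw [key]
  positivity

theorem hnum_a {m L : ℝ} (hm : 2 ≤ m) (h1 : 24*m ≤ L) :
    0 < -20992*m^4 + 672*m^3*L - 49152*m^3 + 24*m^2*L^2 + 2448*m^2*L - 49536*m^2 + 156*m*L^2 - 33280*m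
      + 159*L^2 - 3072*L + 1920 := by
  obtain ⟨μ, hμ, hm'⟩ : ∃ μ : ℝ, 0 ≤ μ ∧ m = 2 + μ := ⟨m - 2, by linarith, by ring⟩
  obtain ⟨t, ht, hL⟩ : ∃ t : ℝ, 0 ≤ t ∧ L = 24*(2 + μ) + t :=
    ⟨L - 24*(2 + μ), by rw [← hm']; linarith, by ring⟩
  have key : -20992*m^4 + 672*m^3*L - 49152*m^3 + 24*m^2*L^2 + 2448*m^2*L - 49536*m^2 + 156*m*L^2 - 33280*m
      + 159*L^2 - 3072*L + 1920 =
      8960*μ^4 + 1824*μ^3*t + 171136*μ^3 + 24*μ^2*t^2 + 20880*μ^2*t + 853824*μ^2 + 252*μ*t^2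
      + 69264*μ*t + 1541376*μ + 567*t^2 + 66528*t + 895104 := by
    rw [hL, hm']; ring
  rw [key]
  positivity

theorem hnum_P {m L : ℝ} (hm : 2 ≤ m) (h1 : 24*m ≤ L) :
    0 < 4*m - 1 := by
  obtain ⟨μ, hμ, hm'⟩ : ∃ μ : ℝ, 0 ≤ μ ∧ m = 2 + μ := ⟨m - 2, by linarith, by ring⟩
  obtain ⟨t, ht, hL⟩ : ∃ t : ℝ, 0 ≤ t ∧ L = 24*(2 + μ) + t :=
    ⟨L - 24*(2 + μ), by rw [← hm']; linarith, by ring⟩
  have key : 4*m - 1 =
      4*μ + 7 := by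
    rw [hm']; ring
  rw [key]
  positivity

theorem hnum_g {m L : ℝ} (hm : 2 ≤ m) (h1 : 24*m ≤ L) :
    0 < -20992*m^5 - 192*m^4*L - 49152*m^4 + 64*m^3*L^2 + 1040*m^3*L - 49536*m^3 + 296*m^2*L^2
      + 1120*m^2*L - 33280*m^2 + 247*m*L^2 - 1216*m*L + 1920*m + 15*L^2 - 240*L := by
  obtain ⟨μ, hμ, hm'⟩ : ∃ μ : ℝ, 0 ≤ μ ∧ m = 2 + μ := ⟨m - 2, by linarith, by ring⟩
  obtain ⟨t, ht, hL⟩ : ∃ t : ℝ, 0 ≤ t ∧ L = 24*(2 + μ) + t :=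
    ⟨L - 24*(2 + μ), by rw [← hm']; linarith, by ring⟩
  have key : -20992*m^5 - 192*m^4*L - 49152*m^4 + 64*m^3*L^2 + 1040*m^3*L - 49536*m^3 + 296*m^2*L^2
      + 1120*m^2*L - 33280*m^2 + 247*m*L^2 - 1216*m*L + 1920*m + 15*L^2 - 240*L =
      11264*μ^5 + 2880*μ^4*t + 258944*μ^4 + 64*μ^3*t^2 + 38288*μ^3*t + 1740608*μ^3 + 680*μ^2*t^2
      + 173584*μ^2*t + 5076288*μ^2 + 2199*μ*t^2 + 326544*μ*t + 6799104*μ + 2205*t^2 + 218736*t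
      + 3435264 := by
    rw [hL, hm']; ring
  rw [key]
  positivity

theorem hnum_det {m L : ℝ} (hm : 2 ≤ m) (h1 : 24*m ≤ L) :
    0 < -335872*m^8 - 2048*m^7*L - 870400*m^7 + 896*m^6*L^2 + 20224*m^6*L - 947200*m^6 + 4448*m^5*L^2
      + 28240*m^5*L - 632320*m^5 + 4286*m^4*L^2 - 16760*m^4*L - 3328*m^4 + 599*m^3*L^2 - 16568*m^3*L
      + 74240*m^3 + 269*m^2*L^2 - 3176*m^2*L - 3840*m^2 + 551*m*L^2 - 696*m*L + 147*L^2 := by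
  obtain ⟨μ, hμ, hm'⟩ : ∃ μ : ℝ, 0 ≤ μ ∧ m = 2 + μ := ⟨m - 2, by linarith, by ring⟩
  obtain ⟨t, ht, hL⟩ : ∃ t : ℝ, 0 ≤ t ∧ L = 24*(2 + μ) + t :=
    ⟨L - 24*(2 + μ), by rw [← hm']; linarith, by ring⟩
  have key : -335872*m^8 - 2048*m^7*L - 870400*m^7 + 896*m^6*L^2 + 20224*m^6*L - 947200*m^6 + 4448*m^5*L^2
      + 28240*m^5*L - 632320*m^5 + 4286*m^4*L^2 - 16760*m^4*L - 3328*m^4 + 599*m^3*L^2 - 16568*m^3*L
      + 74240*m^3 + 269*m^2*L^2 - 3176*m^2*L - 3840*m^2 + 551*m*L^2 - 696*m*L + 147*L^2 =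
      131072*μ^8 + 40960*μ^7*t + 4274176*μ^7 + 896*μ^6*t^2 + 807168*μ^6*t + 47357696*μ^6
      + 15200*μ^5*t^2 + 6479344*μ^5*t + 267292288*μ^5 + 102526*μ^4*t^2 + 27844152*μ^4*t
      + 881183744*μ^4 + 356167*μ^3*t^2 + 69785080*μ^3*t + 1776667648*μ^3 + 677607*μ^2*t^2
      + 102626424*μ^2*t + 2166561408*μ^2 + 673839*μ*t^2 + 82382616*μ*t + 1472795136*μ + 275373*t^2
      + 27956880*t + 429746688 := by
    rw [hL, hm']; ring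
  rw [key]
  positivity

theorem heq_w {m L : ℝ} (hm : 2 ≤ m) (hL : 0 < L) :
    High (4*m) 3 L 0 1 0 0 0 =
      (-1408*m^3 + 80*m^2*L - 3256*m^2 + 293*m*L - 3024*m + 249*L - 1752) / (18*((2*m + 3)*(L + 16*m))) := by
  have hm0 : (0:ℝ) < m := by linarith
  have h1 : (0:ℝ) < L + 16*m := by linarith
  have h2 : (L + 4*(4*m) : ℝ) ≠ 0 := by linarith
  simp only [High, High1, High2, xx2, q0, q1, q2, q3, dx, kk, y2, pk, ss, aa, eta]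
  field_simp
  ring


theorem heq_P {m L : ℝ} (hm : 2 ≤ m) (hL : 0 < L) :
    High (4*m) 3 L 1 0 0 0 0 =
      (4*m - 1) / (1*(1)) := by
  have hm0 : (0:ℝ) < m := by linarith
  have h1 : (0:ℝ) < L + 16*m := by linarith
  have h2 : (L + 4*(4*m) : ℝ) ≠ 0 := by linarith
  simp only [High, High1, High2, xx2, q0, q1, q2, q3, dx, kk, y2, pk, ss, aa, eta]
  field_simp
  ring


theorem heq_b {m L : ℝ} (hm : 2 ≤ m) (hL : 0 < L) :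
    High (4*m) 3 L 0 0 1 0 0 =
      (-768*m^4 - 448*m^3*L - 2624*m^3 - 1320*m^2*L - 2784*m^2 - 1268*m*L + 128*m
      - 360*L + 480) / (9*((2*m + 3)*(L + 16*m)^2)) := by
  have hm0 : (0:ℝ) < m := by linarith
  have h1 : (0:ℝ) < L + 16*m := by linarith
  have h2 : (L + 4*(4*m) : ℝ) ≠ 0 := by linarith
  simp only [High, High1, High2, xx2, q0, q1, q2, q3, dx, kk, y2, pk, ss, aa, eta]
  field_simp
  ring


theorem heq_z {m L : ℝ} (hm : 2 ≤ m) (hL : 0 < L) :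
    High (4*m) 3 L 0 0 0 1 0 =
      (512*m^4 + 1648*m^3 + 1576*m^2 + 440*m) / (3*((2*m + 3)*(L + 16*m)^2)) := by
  have hm0 : (0:ℝ) < m := by linarith
  have h1 : (0:ℝ) < L + 16*m := by linarith
  have h2 : (L + 4*(4*m) : ℝ) ≠ 0 := by linarith
  simp only [High, High1, High2, xx2, q0, q1, q2, q3, dx, kk, y2, pk, ss, aa, eta]
  field_simp
  ring


theorem heq_a {m L : ℝ} (hm : 2 ≤ m) (hL : 0 < L) :
    High (4*m) 3 L 0 1 0 0 0 + b1 (4*m) 3 L * High (4*m) 3 L 0 0 1 0 0 =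
      (-20992*m^4 + 672*m^3*L - 49152*m^3 + 24*m^2*L^2 + 2448*m^2*L - 49536*m^2
      + 156*m*L^2 - 33280*m + 159*L^2 - 3072*L + 1920) / (18*((2*m + 3)*(L + 16*m)^2)) := by
  have hm0 : (0:ℝ) < m := by linarith
  have h1 : (0:ℝ) < L + 16*m := by linarith
  rw [heq_w hm hL, heq_b hm hL]
  simp only [b1]
  field_simp
  ring


theorem heq_g {m L : ℝ} (hm : 2 ≤ m) (hL : 0 < L) :
    High (4*m) 3 L 0 1 0 0 0 + b0 (4*m) 3 L * High (4*m) 3 L 0 0 1 0 0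
      + L/(4*m)*b0 (4*m) 3 L * High (4*m) 3 L 0 0 0 1 0 =
      (-20992*m^5 - 192*m^4*L - 49152*m^4 + 64*m^3*L^2 + 1040*m^3*L - 49536*m^3
      + 296*m^2*L^2 + 1120*m^2*L - 33280*m^2 + 247*m*L^2 - 1216*m*L + 1920*m + 15*L^2
      - 240*L) / (18*((2*m + 3)*(L + 16*m)^2*m)) := by
  have hm0 : (0:ℝ) < m := by linarith
  have h1 : (0:ℝ) < L + 16*m := by linarith
  rw [heq_w hm hL, heq_b hm hL, heq_z hm hL]
  simp only [b0]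
  field_simp
  ring


theorem heq_r {m L : ℝ} (hm : 2 ≤ m) (hL : 0 < L) :
    High (4*m) 3 L 0 0 0 0 1 =
      (32*m^2 + 60*m + 28) / (3*((L + 16*m))) := by
  have hm0 : (0:ℝ) < m := by linarith
  have h1 : (0:ℝ) < L + 16*m := by linarith
  have h2 : (L + 4*(4*m) : ℝ) ≠ 0 := by linarith
  simp only [High, High1, High2, xx2, q0, q1, q2, q3, dx, kk, y2, pk, ss, aa, eta]
  field_simp
  ring


theorem hdet_pos {m L : ℝ} (hm : 2 ≤ m) (h1 : 24*m ≤ L) :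
    (High (4*m) 3 L 0 0 0 0 1)^2*(L/(4*m)*b0 (4*m) 3 L) <
      4*High (4*m) 3 L 1 0 0 0 0*(High (4*m) 3 L 0 1 0 0 0
        + b0 (4*m) 3 L * High (4*m) 3 L 0 0 1 0 0
        + L/(4*m)*b0 (4*m) 3 L * High (4*m) 3 L 0 0 0 1 0) := by
  have hL : 0 < L := by linarith
  have hm0 : (0:ℝ) < m := by linarith
  have hn := hnum_det hm h1
  rw [heq_r hm hL, heq_P hm hL, heq_g hm hL, ← sub_pos]
  have hb : b0 (4*m) 3 L = (m-1)*(L-8*m)/(4*m*(2*m+1)) := by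
    simp only [b0]; field_simp; ring
  rw [hb]
  have key : 4*((4*m - 1) / (1*(1)))
        *((-20992*m^5 - 192*m^4*L - 49152*m^4 + 64*m^3*L^2 + 1040*m^3*L - 49536*m^3
      + 296*m^2*L^2 + 1120*m^2*L - 33280*m^2 + 247*m*L^2 - 1216*m*L + 1920*m + 15*L^2
      - 240*L) / (18*((2*m + 3)*(L + 16*m)^2*m)))
      - ((32*m^2 + 60*m + 28) / (3*((L + 16*m))))^2
          *(L/(4*m)*((m-1)*(L-8*m)/(4*m*(2*m+1))))
      = (-335872*m^8 - 2048*m^7*L - 870400*m^7 + 896*m^6*L^2 + 20224*m^6*L - 947200*m^6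
      + 4448*m^5*L^2 + 28240*m^5*L - 632320*m^5 + 4286*m^4*L^2 - 16760*m^4*L
      - 3328*m^4 + 599*m^3*L^2 - 16568*m^3*L + 74240*m^3 + 269*m^2*L^2 - 3176*m^2*L
      - 3840*m^2 + 551*m*L^2 - 696*m*L + 147*L^2) / (9*((2*m + 3)*(2*m + 1)*(L + 16*m)^2*m^2)) := by
    field_simp
    ring
  rw [key]
  positivity

/-- **S0, quaternionic, high range** -/
theorem high_H {m L Φ W0 W1 W2 γ : ℝ} (hm : 2 ≤ m) (h1 : 24*m ≤ L)
    (hΦ : 0 ≤ Φ) (hW0 : 0 ≤ W0) (hW1 : 0 ≤ W1) (hW2 : 0 ≤ W2)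
    (hγ : γ^2 ≤ Φ*(L/(4*m)*b0 (4*m) 3 L*W1)) (hpos : 0 < Φ + W0 + W1 + W2) :
    0 < High (4*m) 3 L Φ (W0 + W1 + W2) (b1 (4*m) 3 L*W0 + b0 (4*m) 3 L*W1)
      (L/(4*m)*b0 (4*m) 3 L*W1) γ := by
  have hL : 0 < L := by linarith
  have hm0 : (0:ℝ) < m := by linarith
  have hP : 0 < High (4*m) 3 L 1 0 0 0 0 := by
    rw [heq_P hm hL]; exact div_pos (hnum_P hm h1) (by positivity)
  have hG : 0 < High (4*m) 3 L 0 1 0 0 0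
        + b0 (4*m) 3 L * High (4*m) 3 L 0 0 1 0 0
        + L/(4*m)*b0 (4*m) 3 L * High (4*m) 3 L 0 0 0 1 0 := by
    rw [heq_g hm hL]; exact div_pos (hnum_g hm h1) (by positivity)
  have hw : 0 < High (4*m) 3 L 0 1 0 0 0 := by
    rw [heq_w hm hL]; exact div_pos (hnum_w hm h1) (by positivity)
  have ha : 0 < High (4*m) 3 L 0 1 0 0 0 + b1 (4*m) 3 L * High (4*m) 3 L 0 0 1 0 0 := by
    rw [heq_a hm hL]; exact div_pos (hnum_a hm h1) (by positivity)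
  obtain ⟨t1, t2⟩ := two hP hG (hdet_pos hm h1) hΦ hW1 hγ
  rw [High_lin]
  have e : Φ*High (4*m) 3 L 1 0 0 0 0 + (W0+W1+W2)*High (4*m) 3 L 0 1 0 0 0
      + (b1 (4*m) 3 L*W0 + b0 (4*m) 3 L*W1)*High (4*m) 3 L 0 0 1 0 0
      + L/(4*m)*b0 (4*m) 3 L*W1*High (4*m) 3 L 0 0 0 1 0
      + γ*High (4*m) 3 L 0 0 0 0 1
      = (High (4*m) 3 L 1 0 0 0 0*Φ + High (4*m) 3 L 0 0 0 0 1*γ
        + (High (4*m) 3 L 0 1 0 0 0
        + b0 (4*m) 3 L * High (4*m) 3 L 0 0 1 0 0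
        + L/(4*m)*b0 (4*m) 3 L * High (4*m) 3 L 0 0 0 1 0)*W1)
        + (High (4*m) 3 L 0 1 0 0 0 + b1 (4*m) 3 L * High (4*m) 3 L 0 0 1 0 0)*W0
        + High (4*m) 3 L 0 1 0 0 0*W2 := by ring
  rw [e]
  have h3 : 0 ≤ High (4*m) 3 L 0 1 0 0 0*W2 := mul_nonneg hw.le hW2
  have h4 : 0 ≤ (High (4*m) 3 L 0 1 0 0 0 + b1 (4*m) 3 L * High (4*m) 3 L 0 0 1 0 0)*W0 :=
    mul_nonneg ha.le hW0
  rcases lt_or_ge 0 (Φ + W1) with h | h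
  · have := t2 h
    linarith
  · rcases lt_or_ge 0 W0 with h' | h'
    · have := mul_pos ha h'
      linarith
    · have : 0 < High (4*m) 3 L 0 1 0 0 0*W2 := mul_pos hw (by linarith)
      linarith


end

end Vale.Agent.P207.H722.S0
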